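import Mathlib

namespace Vale.Agent.P198

/-- All geodesic triangles of the graph `X` are `δ`-thin: every vertex on one side is within
distance `δ` of a vertex on one of the other two sides. -/
def ThinTriangles {V : Type} (X : SimpleGraph V) (δ : ℕ) : Prop :=
  ∀ (x y z : V) (p : X.Walk x y) (q : X.Walk y z) (r : X.Walk z x),
    p.length = X.dist x y → q.length = X.dist y z → r.length = X.dist z x →
    ∀ u ∈ p.support, ∃ v, (v ∈ q.support ∨ v ∈ r.support) ∧ X.dist u v ≤ δ

/-- Geodesic rays of the graph `X` from the base vertex `o`. -/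
def Ray {V : Type} (X : SimpleGraph V) (o : V) : Type :=
  {r : ℕ → V // r 0 = o ∧ ∀ i j, i ≤ j → X.dist (r i) (r j) = j - i}

/-- Rays carry the topology of pointwise convergence, the vertex set being discrete (this is
uniform convergence on compact sets). -/
instance {V : Type} (X : SimpleGraph V) (o : V) : TopologicalSpace (Ray X o) :=
  TopologicalSpace.induced Subtype.val (@Pi.topologicalSpace ℕ (fun _ => V) fun _ => ⊥)

/-- Two rays are at bounded Hausdorff distance. -/
def Asymptotic {V : Type} (X : SimpleGraph V) (o : V) (r s : Ray X o) : Prop :=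
  ∃ C : ℕ, (∀ i, ∃ j, X.dist (r.1 i) (s.1 j) ≤ C) ∧ ∀ j, ∃ i, X.dist (r.1 i) (s.1 j) ≤ C

/-- The Gromov boundary: rays from `o` modulo bounded Hausdorff distance, with the quotient
topology. -/
abbrev Boundary {V : Type} (X : SimpleGraph V) (o : V) : Type := Quot (Asymptotic X o)

/-- The Minkowski form of signature `(1, 3)`. -/
def mink (x y : Fin 4 → ℝ) : ℝ := x 0 * y 0 - x 1 * y 1 - x 2 * y 2 - x 3 * y 3

/-- Hyperbolic 3-space, hyperboloid model (with the subspace topology). -/
abbrev H3 : Type := {x : Fin 4 → ℝ // mink x x = 1 ∧ 0 < x 0}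

/-- The hyperbolic distance. -/
noncomputable def hdist (x y : H3) : ℝ := Real.arcosh (mink x.1 y.1)

/-- `ρ` is an isometric action on `H3` that is proper and cocompact and has finite kernel. -/
def Geometric {G : Type} [Group G] (ρ : G →* Equiv.Perm H3) : Prop :=
  (∀ g x y, hdist (ρ g x) (ρ g y) = hdist x y) ∧
  (∀ K : Set H3, IsCompact K → {g | (ρ g '' K ∩ K).Nonempty}.Finite) ∧
  (∃ K : Set H3, IsCompact K ∧ ∀ x, ∃ g, ρ g x ∈ K) ∧
  (ρ.ker : Set G).Finite

end Vale.Agent.P198
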