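import Mathlib
import Vale.Agent.P187.Base
import Vale.Agent.P198.Defs

/-! # P198: shared definitions (FROZEN; see notes/P198.md) -/

namespace Vale.Agent.P198
open Set Metric Filter Topology MeasureTheory
open Vale.Agent.P187 (IsWN)

abbrev S2 : Type := Metric.sphere (0 : EuclideanSpace ℝ (Fin 3)) 1

/-- The Gromov product based at `1`, rounded down. -/
def gp {G : Type} [Group G] (ν : G → ℕ) (x y : G) : ℕ := (ν x + ν y - ν (x⁻¹ * y)) / 2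

/-- `s` and `t` are comparable with constant `C`. -/
def Cmp (C s t : ℝ) : Prop := s ≤ C * t ∧ t ≤ C * s

/-- Continuum. -/
def Cont {Z : Type} [TopologicalSpace Z] (K : Set Z) : Prop := IsCompact K ∧ IsConnected K

/-- `Pp x ξ` is comparable with `q ^ (x | ξ)`. -/
def Pp {G Z : Type} [MetricSpace Z] (ν : G → ℕ) (π : G → Z) (q : ℝ) (x : G) (ξ : Z) : ℝ :=
  max (dist (π x) ξ) (q ^ ν x)

/-- The geometry package: `Z` is the boundary with a visual metric of parameter `q⁻¹`. -/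
structure GP (G Z : Type) [Group G] [MetricSpace Z] [MulAction G Z] where
  ν : G → ℕ
  π : G → Z
  q : ℝ
  C : ℝ
  wn : IsWN ν
  q_pos : 0 < q
  q_lt : q < 1
  C_ge : 1 ≤ C
  m1 : ∀ (g : G) (ξ ζ : Z), Cmp C (dist (g • ξ) (g • ζ) * (Pp ν π q g⁻¹ ξ * Pp ν π q g⁻¹ ζ))
    (q ^ ν g * dist ξ ζ)
  m2 : ∀ (g x : G) (ξ : Z), Cmp C (Pp ν π q (g * x) (g • ξ) * (q ^ gp ν x g⁻¹ * Pp ν π q g⁻¹ ξ))
    (q ^ ν g * Pp ν π q x ξ)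
  m3 : ∀ x y : G, Cmp C (q ^ gp ν x y) (max (dist (π x) (π y)) (max (q ^ ν x) (q ^ ν y)))
  net : ∀ (k : ℕ) (ξ : Z), ∃ x, ν x = k ∧ dist ξ (π x) ≤ C * q ^ k
  sph : Nonempty (Z ≃ₜ S2)

section gp
variable {G Z : Type} [Group G] [MetricSpace Z] [MulAction G Z]

/-- The ball of radius `R` in the group. -/
noncomputable def GP.B (X : GP G Z) (R : ℕ) : Finset G := (X.wn.fin R).toFinset

/-- The sphere of radius `k` in the group. -/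
noncomputable def GP.S (X : GP G Z) (k : ℕ) : Finset G := (X.B k).filter fun x => X.ν x = k

theorem GP.mem_B (X : GP G Z) {R : ℕ} {x : G} : x ∈ X.B R ↔ X.ν x ≤ R := by
  simp [GP.B]

theorem GP.mem_S (X : GP G Z) {k : ℕ} {x : G} : x ∈ X.S k ↔ X.ν x = k := by
  simp only [GP.S, Finset.mem_filter, X.mem_B]; omega

open Classical in
/-- The energy of `U` at level `k` over the region `W`, with steps of length at most `R`. -/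
noncomputable def GP.lev (X : GP G Z) (k R : ℕ) (W : Set Z) (U : G → ℝ) : ℝ :=
  ∑ x ∈ (X.S k).filter (fun x => X.π x ∈ W), ∑ s ∈ X.B R, (U (x * s) - U x) ^ 2

open Classical in
/-- `ρ` is admissible at level `k` for the paths with ends at distance at least `d`. -/
def GP.Adm (X : GP G Z) (k : ℕ) (κ d : ℝ) (ρ : G → ℝ) : Prop :=
  ∀ γ : C(unitInterval, Z), d ≤ dist (γ 0) (γ 1) →
    1 ≤ ∑ x ∈ (X.S k).filter (fun x => ∃ t, dist (γ t) (X.π x) < κ * X.q ^ k), ρ x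

/-- Bounded combinatorial 2-modulus (output of block A). -/
def GP.BM (X : GP G Z) : Prop :=
  ∀ d > 0, ∃ κ M : ℝ, ∀ k, ∃ ρ : G → ℝ, (∀ x, 0 ≤ ρ x) ∧ ∑ x ∈ X.S k, ρ x ^ 2 ≤ M ∧ X.Adm k κ d ρ

/-- A condenser configuration: `f ≤ t₀` on `K₀`, `t₁ ≤ f` on `K₁`, continua of diameter `≥ ε`. -/
structure Cfg (f : Z → ℝ) (K₀ K₁ : Set Z) (ε t₀ t₁ : ℝ) : Prop where
  c₀ : Cont K₀
  c₁ : Cont K₁
  pos : 0 < ε
  d₀ : ε ≤ diam K₀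
  d₁ : ε ≤ diam K₁
  le : t₀ ≤ t₁
  f₀ : ∀ ξ ∈ K₀, f ξ ≤ t₀
  f₁ : ∀ ξ ∈ K₁, t₁ ≤ f ξ

/-- Every `U` close to `f ∘ π` on a deep level has energy at least about `m` over `W`. -/
def GP.Low (X : GP G Z) (R : ℕ) (f : Z → ℝ) (W : Set Z) (m : ℝ) : Prop :=
  ∀ η > 0, ∃ δ > 0, ∃ k₀, ∀ k ≥ k₀, ∀ U : G → ℝ, (∀ x, X.ν x = k → |U x - f (X.π x)| ≤ δ) →
    m - η ≤ X.lev k R W U

/-- Output of block R: discrete Loewner bounds and cutoff functions. -/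
structure GP.RO (X : GP G Z) (R : ℕ) : Prop where
  l1 : ∀ M : ℝ, ∃ τ > 0, ∀ (f : C(Z, ℝ)) K₀ K₁ ε t₀ t₁, Cfg f K₀ K₁ ε t₀ t₁ →
    ∀ p₀ ∈ K₀, ∀ p₁ ∈ K₁, dist p₀ p₁ ≤ τ * ε → X.Low R f (closedBall p₀ ε) (M * (t₁ - t₀) ^ 2)
  l2 : ∀ τ > 0, ∃ c > 0, ∀ (f : C(Z, ℝ)) K₀ K₁ ε t₀ t₁, Cfg f K₀ K₁ ε t₀ t₁ →
    ∀ σ : Set Z, IsPreconnected σ → (σ ∩ K₀).Nonempty → (σ ∩ K₁).Nonempty → τ * diam σ ≤ ε →
      X.Low R f (cthickening ε σ) (c * (t₁ - t₀) ^ 2)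
  cut : ∀ p : Z, ∀ r > 0, ∃ χ : C(Z, ℝ), (∀ᶠ ξ in 𝓝 p, χ ξ = 1) ∧ (∀ ξ, r ≤ dist ξ p → χ ξ = 0) ∧
    ∃ M : ℝ, ∀ k, X.lev k R univ (fun x => χ (X.π x)) ≤ M

end gp

section mono
variable {Z : Type} [MetricSpace Z] [CompactSpace Z]

/-- `g` is a uniform limit of functions that are locally contractions of `f`. -/
def Loc (f g : C(Z, ℝ)) : Prop :=
  ∀ η > 0, ∃ h : C(Z, ℝ), dist h g ≤ η ∧
    ∀ ξ, ∃ T : ℝ → ℝ, LipschitzWith 1 T ∧ ∀ᶠ ζ in 𝓝 ξ, h ζ = T (f ζ)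

/-- Admissible for the condenser `(E, F)`. -/
def Cond (E F : Set Z) (f : Z → ℝ) : Prop :=
  (∀ ξ, 0 ≤ f ξ ∧ f ξ ≤ 1) ∧ (∀ ξ ∈ E, f ξ = 0) ∧ ∀ ξ ∈ F, f ξ = 1

/-- Monotone for the condenser `(E, F)`. -/
def Mon (E F : Set Z) (g : Z → ℝ) : Prop :=
  ∀ ξ, (∃ K, Cont K ∧ ξ ∈ K ∧ (K ∩ F).Nonempty ∧ ∀ ζ ∈ K, g ξ ≤ g ζ) ∧
    ∃ K, Cont K ∧ ξ ∈ K ∧ (K ∩ E).Nonempty ∧ ∀ ζ ∈ K, g ζ ≤ g ξ

end mono

/-- `T` is Lipschitz with constant `√L` for the Euclidean norm. -/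
def Lip2 (L : ℝ) (T : ℝ × ℝ → ℝ) : Prop :=
  ∀ p p' : ℝ × ℝ, (T p - T p') ^ 2 ≤ L * ((p.1 - p'.1) ^ 2 + (p.2 - p'.2) ^ 2)

/-- The pull-back `f ∘ g`. -/
def pull {G Z : Type} [Group G] [MetricSpace Z] [MulAction G Z] [ContinuousConstSMul G Z]
    (g : G) (f : C(Z, ℝ)) : C(Z, ℝ) := f.comp ⟨fun ξ => g • ξ, continuous_const_smul g⟩

/-- An invariant strongly local Dirichlet structure with Loewner bounds (output of block D).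
`I θ f g` is the integral of `θ` against the energy measure of `f, g`. -/
structure DF (G Z : Type) [Group G] [MetricSpace Z] [CompactSpace Z] [MulAction G Z]
    [ContinuousConstSMul G Z] [MeasurableSpace Z] where
  dom : Submodule ℝ C(Z, ℝ)
  I : C(Z, ℝ) →ₗ[ℝ] C(Z, ℝ) →ₗ[ℝ] C(Z, ℝ) →ₗ[ℝ] ℝ
  Γ : C(Z, ℝ) → Measure Z
  fin : ∀ f, IsFiniteMeasure (Γ f)
  symm : ∀ θ f g, I θ f g = I θ g f
  repr : ∀ θ : C(Z, ℝ), ∀ f ∈ dom, I θ f f = ∫ ξ, θ ξ ∂Γ f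
  comp_mem : ∀ f₁ ∈ dom, ∀ f₂ ∈ dom, ∀ (L : ℝ) (T : ℝ × ℝ → ℝ), Lip2 L T → ∀ h : C(Z, ℝ),
    (∀ ξ, h ξ = T (f₁ ξ, f₂ ξ)) → h ∈ dom
  contr : ∀ f₁ ∈ dom, ∀ f₂ ∈ dom, ∀ h ∈ dom, ∀ (L : ℝ) (T : ℝ × ℝ → ℝ), Lip2 L T →
    ∀ W : Set Z, IsOpen W → (∀ ξ ∈ W, h ξ = T (f₁ ξ, f₂ ξ)) → ∀ θ : C(Z, ℝ), (∀ ξ, 0 ≤ θ ξ) →
      tsupport θ ⊆ W → I θ h h ≤ L * (I θ f₁ f₁ + I θ f₂ f₂)
  lsc : ∀ (f : ℕ → C(Z, ℝ)) (g : C(Z, ℝ)) (M : ℝ), (∀ n, f n ∈ dom) → Tendsto f atTop (𝓝 g) →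
    (∀ n, I 1 (f n) (f n) ≤ M) → g ∈ dom ∧ I 1 g g ≤ M
  inv_mem : ∀ (g : G), ∀ f ∈ dom, pull g f ∈ dom
  inv : ∀ (g : G) (θ : C(Z, ℝ)), ∀ f ∈ dom, ∀ h ∈ dom,
    I (pull g θ) (pull g f) (pull g h) = I θ f h
  cut : ∀ p : Z, ∀ r > 0, ∃ χ ∈ dom, (∀ᶠ ξ in 𝓝 p, χ ξ = 1) ∧ ∀ ξ, r ≤ dist ξ p → χ ξ = 0
  l1 : ∀ M : ℝ, ∃ τ > 0, ∀ f ∈ dom, ∀ K₀ K₁ ε t₀ t₁, Cfg f K₀ K₁ ε t₀ t₁ →
    ∀ p₀ ∈ K₀, ∀ p₁ ∈ K₁, dist p₀ p₁ ≤ τ * ε → M * (t₁ - t₀) ^ 2 ≤ (Γ f).real (closedBall p₀ ε)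
  l2 : ∀ τ > 0, ∃ c > 0, ∀ f ∈ dom, ∀ K₀ K₁ ε t₀ t₁, Cfg f K₀ K₁ ε t₀ t₁ →
    ∀ σ : Set Z, IsPreconnected σ → (σ ∩ K₀).Nonempty → (σ ∩ K₁).Nonempty → τ * diam σ ≤ ε →
      c * (t₁ - t₀) ^ 2 ≤ (Γ f).real (cthickening ε σ)

section df
variable {G Z : Type} [Group G] [MetricSpace Z] [CompactSpace Z] [MulAction G Z]
  [ContinuousConstSMul G Z] [MeasurableSpace Z]

/-- `u` is harmonic on `O`. -/
def DF.Harm (D : DF G Z) (O : Set Z) (u : C(Z, ℝ)) : Prop :=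
  u ∈ D.dom ∧ ∀ h ∈ D.dom, tsupport h ⊆ O → D.I 1 u h = 0

/-- The complex function `u + i v`. -/
def cx {Z : Type} (u v : Z → ℝ) (ξ : Z) : ℂ := ⟨u ξ, v ξ⟩

/-- A harmonic pair whose image has positive area (output of block P). -/
structure DF.HP (D : DF G Z) (O : Set Z) (u v : C(Z, ℝ)) : Prop where
  op : IsOpen O
  hu : D.Harm O u
  hv : D.Harm O v
  area : ∃ K, IsCompact K ∧ K ⊆ O ∧ 0 < volume (cx u v '' K)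

/-- A harmonic morphism (output of block H). -/
structure DF.HM (D : DF G Z) (O : Set Z) (u v : C(Z, ℝ)) : Prop extends D.HP O u v where
  conf : ∀ θ : C(Z, ℝ), tsupport θ ⊆ O → D.I θ u u = D.I θ v v ∧ D.I θ u v = 0

end df

section atlas
variable (G : Type) {Z : Type} [Group G] [MetricSpace Z] [MulAction G Z]

/-- A chart whose transition maps are holomorphic or antiholomorphic (output of block C). -/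
structure Chart (V : Set Z) (φ : Z → ℂ) : Prop where
  op : IsOpen V
  ne : V.Nonempty
  cont : Continuous φ
  inj : InjOn φ V
  nhds : ∀ ξ ∈ V, map φ (𝓝 ξ) = 𝓝 (φ ξ)
  tr : ∀ (g : G), ∀ ξ ∈ V, g • ξ ∈ V → ∃ F : ℂ → ℂ,
    (AnalyticAt ℂ F (φ ξ) ∨ AnalyticAt ℂ (fun z => starRingEnd ℂ (F z)) (φ ξ)) ∧
      ∀ᶠ ζ in 𝓝 ξ, φ (g • ζ) = F (φ ζ)

/-- A global coordinate in which `G` acts by Moebius and anti-Moebius maps (output of block K). -/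
structure Mob (η : Z) (κ : Z → ℂ) : Prop where
  cont : ContinuousOn κ {η}ᶜ
  bij : BijOn κ {η}ᶜ univ
  inf : Tendsto κ (𝓝[≠] η) (cocompact ℂ)
  mob : ∀ g : G, ∃ a b c d : ℂ, a * d - b * c ≠ 0 ∧ ∃ σ : ℂ →+* ℂ,
    (σ = RingHom.id ℂ ∨ σ = starRingEnd ℂ) ∧ ∀ ξ, ξ ≠ η → g • ξ ≠ η →
      κ (g • ξ) * (c * σ (κ ξ) + d) = a * σ (κ ξ) + b

end atlas

end Vale.Agent.P198
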